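import Vale.Agent.P048.Sat.FastGraph
import Vale.Agent.P048.Sat.Z7x18.In0
import Vale.Agent.P048.Sat.Z7x18.In1
import Vale.Agent.P048.Sat.Z7x18.Pf0

namespace Vale.Agent.P048.Sat.Z7x18

open Vale.Agent.P048.Sat Vale.Agent.P048.Sat.Fast

theorem unsat (A : ℕ → ℕ → Prop) (hA : Model sp A) : False := by
  have h0 : ∀ j, j < 0 → Fast.CSat (tauOf A) 512 (cls j) := fun j hj => absurd hj (Nat.not_lt_zero j)
  have h1 := Fast.checkIn_sound hA in0 h0
  have h2 := Fast.checkIn_sound hA in1 h1
  have h3 := Fast.checkIn_sound hA in2 h2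
  have h4 := Fast.checkIn_sound hA in3 h3
  have h5 := Fast.checkIn_sound hA in4 h4
  have h6 := Fast.checkIn_sound hA in5 h5
  have h7 := Fast.checkIn_sound hA in6 h6
  have h8 := Fast.checkIn_sound hA in7 h7
  have h9 := Fast.checkIn_sound hA in8 h8
  have h10 := Fast.checkIn_sound hA in9 h9
  have h11 := Fast.checkIn_sound hA in10 h10
  have h12 := Fast.checkIn_sound hA in11 h11
  have h13 := Fast.checkIn_sound hA in12 h12
  have h14 := Fast.checkRange_sound 9 (by norm_num) pf0 h13
  have h15 := Fast.checkRange_sound 9 (by norm_num) pf1 h14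
  exact Fast.not_sat_of_shr (c := cls 5907) (by decide +kernel) (h15 5907 (by norm_num))

end Vale.Agent.P048.Sat.Z7x18
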